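import Vale.Agent.Lib.P062.Reduce
import Vale.Agent.Lib.P062.CT.C1

namespace Vale.Agent.Results.P062.A_makerWins

open Vale.Agent.Lib.P062
open Vale.Agent.Lib.P062.Asm
open Vale.Agent.Lib.P062.Asm2

/-- Maker's third stone `(-3, 0)` (cell number 207) in the last open position, and its proof. -/
noncomputable def rowA : Row2 := (250, Core.orK (nat_lit 207) CT.D29884)

theorem rowA_ok : rowOK2 rowA = true := by decide +kernel

/-- The last open position is won by Maker. -/
theorem posA : ∃ n, MakerForces n {((0 : ℤ), (0 : ℤ)), ((0 : ℤ), (1 : ℤ))}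
    {((1 : ℤ), (0 : ℤ)), ((0 : ℤ), (2 : ℤ))} := by
  obtain ⟨n, hn⟩ := row2_forces rowA rowA_ok
  refine ⟨n, ?_⟩
  have e : Core.cellOf rowA.1 = ((0 : ℤ) + 10, (2 : ℤ) + 10) := by
    simp [rowA, Core.cellOf, Core.W]
  rw [e] at hn
  exact to_origin2 hn

/-- Maker has a winning strategy for Snaky on the initially empty board `ℤ²` with no handicap:
moving first, Maker forces an allowed copy of Snaky within a bounded number of moves. -/
theorem result : ∃ N : ℕ, MakerForces N (∅ : Finset Cell) ∅ := by
  obtain ⟨_, _, _, h⟩ := Reduce.reduce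
  exact h posA

end Vale.Agent.Results.P062.A_makerWins
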