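import Vale.Agent.Lib.P062.TblA

namespace Vale.Agent.Results.P062.A_nonOrth

open Vale.Agent.Lib.P062
open Vale.Agent.Lib.P062.Asm
open Vale.Agent.Lib.P062.TblA

theorem cover : ∀ i, i < 400 → x0.F.testBit i = true → i ≠ 210 → ¬ (Asm.px i = 1 ∧ Asm.qx i = 0) →
    ∃ t ∈ L, t.1 = Asm.px i ∧ t.2.1 = Asm.qx i := by
  decide +kernel

/-- If Maker opens at `(0,0)` and Breaker does not reply on one of the four cells sharing an edge
with it, then Maker can force an allowed copy of Snaky within a bounded number of further moves. -/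
theorem result : ∃ N : ℕ, ∀ b : Cell, b ≠ ((0 : ℤ), (0 : ℤ)) → |b.1| + |b.2| ≠ 1 →
    MakerForces N {((0 : ℤ), (0 : ℤ))} {b} := by
  obtain ⟨N, hN⟩ := first_reply x0 hx0 hsize L hL (fun p q => ¬ (p = 1 ∧ q = 0)) cover
  refine ⟨N, fun b hb hb1 => hN b hb ?_⟩
  rintro p q hp hq ⟨rfl, rfl⟩
  apply hb1
  rcases le_total |b.1| |b.2| with h | h
  · rw [max_eq_right h] at hp
    rw [min_eq_left h] at hq
    push_cast at hp hq
    omega
  · rw [max_eq_left h] at hp
    rw [min_eq_right h] at hq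
    push_cast at hp hq
    omega

end Vale.Agent.Results.P062.A_nonOrth
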