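import Vale.Agent.Lib.P062.TblA
import Vale.Agent.Lib.P062.TblR

namespace Vale.Agent.Results.P062.A_reduceA

open Vale.Agent.Lib.P062
open Vale.Agent.Lib.P062.Asm
open Vale.Agent.Lib.P062.Asm2

theorem cover : ∀ i, i < 400 → TblA.x0.F.testBit i = true → i ≠ 210 →
    ¬ (Asm.px i = 1 ∧ Asm.qx i = 0) →
    ∃ t ∈ TblA.L, t.1 = Asm.px i ∧ t.2.1 = Asm.qx i := by
  decide +kernel

theorem far : ∃ N : ℕ, ∀ b : Cell, b ≠ ((0 : ℤ), (0 : ℤ)) → |b.1| + |b.2| ≠ 1 →
    MakerForces N {((0 : ℤ), (0 : ℤ))} {b} := by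
  obtain ⟨N, hN⟩ := first_reply TblA.x0 TblA.hx0 TblA.hsize TblA.L TblA.hL
    (fun p q => ¬ (p = 1 ∧ q = 0)) cover
  refine ⟨N, fun b hb hb1 => hN b hb ?_⟩
  rintro p q hp hq ⟨rfl, rfl⟩
  apply hb1
  rcases le_total |b.1| |b.2| with h | h
  · rw [max_eq_right h] at hp
    rw [min_eq_left h] at hq
    push_cast at hp hq
    omega
  · rw [max_eq_left h] at hp
    rw [min_eq_right h] at hq
    push_cast at hp hq
    omega

theorem second : ∃ N : ℕ, ∀ x y : ℤ, ((x, y) : Cell) ≠ (0, 0) → ((x, y) : Cell) ≠ (0, 1) →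
    ((x, y) : Cell) ≠ (0, 2) →
    MakerForces N {((0 : ℤ), (0 : ℤ)), ((0 : ℤ), (1 : ℤ))} {((1 : ℤ), (0 : ℤ)), (x, y)} := by
  obtain ⟨N, hN⟩ := second_stone TblR.x0 TblR.hx0 TblR.hd1 TblR.hsize TblR.L TblR.hL
    (fun i => i ≠ 250) TblR.cover
  refine ⟨N, fun x y h0 h1 h2 => to_origin2 (hN _ ?_ ?_ ?_)⟩
  · intro h
    simp only [c1, Prod.mk.injEq] at h
    apply h0
    simp only [Prod.mk.injEq]
    omega
  · intro h
    simp only [c2, Prod.mk.injEq] at h
    apply h1
    simp only [Prod.mk.injEq]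
    omega
  · rintro i hi rfl
    apply h2
    simp only [Core.cellOf, Core.W, Prod.mk.injEq] at hi
    simp only [Prod.mk.injEq]
    omega

/-- Every first reply of Breaker except the four edge neighbours loses; against the edge neighbour
`(1,0)`, after Maker's second stone `(0,1)`, every reply except `(0,2)` loses. Hence the game is
reduced to one single position: if Maker wins from it, Maker wins on the empty board. -/
theorem result : ∃ N : ℕ,
    (∀ b : Cell, b ≠ ((0 : ℤ), (0 : ℤ)) → |b.1| + |b.2| ≠ 1 →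
      MakerForces N {((0 : ℤ), (0 : ℤ))} {b}) ∧
    (∀ r : Cell, r ≠ ((0 : ℤ), (0 : ℤ)) → r ≠ ((0 : ℤ), (1 : ℤ)) → r ≠ ((1 : ℤ), (0 : ℤ)) →
      r ≠ ((0 : ℤ), (2 : ℤ)) →
      MakerForces N {((0 : ℤ), (0 : ℤ)), ((0 : ℤ), (1 : ℤ))} {((1 : ℤ), (0 : ℤ)), r}) ∧
    ((∃ n, MakerForces n {((0 : ℤ), (0 : ℤ)), ((0 : ℤ), (1 : ℤ))}
        {((1 : ℤ), (0 : ℤ)), ((0 : ℤ), (2 : ℤ))}) →
      ∃ m, MakerForces m (∅ : Finset Cell) ∅) := by
  obtain ⟨N1, hN1⟩ := far
  obtain ⟨N2, hN2⟩ := second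
  refine ⟨max N1 N2, fun b hb h => (hN1 b hb h).mono (le_max_left _ _), fun r h0 h1 _ h2 => ?_, ?_⟩
  · obtain ⟨x, y⟩ := r
    exact (hN2 x y h0 h1 h2).mono (le_max_right _ _)
  · rintro ⟨n, hn⟩
    set K := max (max N1 N2) n with hK
    have hside : MakerForces (K + 1) {o0} {((1 : ℤ), (0 : ℤ))} := by
      refine Or.inr ⟨((0 : ℤ), (1 : ℤ)), by simp [o0], by simp, fun b hb hb' => ?_⟩
      have e1 : insert ((0 : ℤ), (1 : ℤ)) ({o0} : Finset Cell) =
          {((0 : ℤ), (0 : ℤ)), ((0 : ℤ), (1 : ℤ))} := by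
        simp [o0, Finset.pair_comm]
      have e2 : insert b ({((1 : ℤ), (0 : ℤ))} : Finset Cell) =
          {((1 : ℤ), (0 : ℤ)), b} := by
        simp [Finset.pair_comm]
      rw [e1, e2]
      rw [e1] at hb
      simp only [Finset.mem_insert, Finset.mem_singleton, not_or] at hb
      simp only [Finset.mem_singleton] at hb'
      by_cases hb2 : b = ((0 : ℤ), (2 : ℤ))
      · rw [hb2]
        exact hn.mono (le_max_right _ _)
      · obtain ⟨x, y⟩ := b
        exact (hN2 x y hb.1 hb.2 hb2).mono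
          (le_trans (le_max_right _ _) (le_max_left _ _))
    refine ⟨K + 2, maker_wins_empty (N := K + 1) fun b hb => ?_⟩
    by_cases h1 : |b.1| + |b.2| = 1
    · obtain ⟨x, y⟩ := b
      apply force_canon0
      have hx : max |x| |y| = 1 ∧ min |x| |y| = 0 := by
        simp only at h1
        have hx0 := abs_nonneg x
        have hy0 := abs_nonneg y
        rcases le_total |x| |y| with h | h
        · rw [max_eq_right h, min_eq_left h]
          omega
        · rw [max_eq_left h, min_eq_right h]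
          omega
      rw [hx.1, hx.2]
      exact hside
    · exact (hN1 b hb h1).mono (le_trans (le_trans (le_max_left _ _) (le_max_left _ _))
        (Nat.le_succ _))

end Vale.Agent.Results.P062.A_reduceA
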