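import Vale.Agent.Lib.P062.Gen.All

namespace Vale.Agent.Results.P062.B_farReply

open Vale.Agent.Lib.P062
open Vale.Agent.Lib.P062.Gen

theorem cover : ∀ i, i < 1024 → Z0.testBit i = true → i ≠ 429 → 2 ≤ px i →
    ∃ t ∈ L, t.1 = px i ∧ t.2.1 = qx i := by
  decide +kernel

/-- If Maker opens at `(0,0)` and Breaker does not reply on one of the eight neighbouring cells,
then Maker can force an allowed copy of Snaky within a bounded number of further moves. -/
theorem result : ∃ N : ℕ, ∀ b : Cell, 2 ≤ max |b.1| |b.2| → MakerForces N {((0 : ℤ), (0 : ℤ))} {b} := by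
  obtain ⟨N, hN⟩ := forces_first_reply rows hj0 h0 L hL (fun i => 2 ≤ px i) cover
  refine ⟨N, fun b hb => forces_origin (hN _ ?_ ?_)⟩
  · intro h
    simp only [c0, Prod.mk.injEq] at h
    have h1 : b.1 = 0 := by omega
    have h2 : b.2 = 0 := by omega
    rw [h1, h2] at hb
    simp at hb
  · intro i hi
    have := px_eq hi
    omega

end Vale.Agent.Results.P062.B_farReply
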