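import Vale.Agent.Lib.P062.Gen.All

namespace Vale.Agent.Results.P062.B_orthoReply

open Vale.Agent.Lib.P062
open Vale.Agent.Lib.P062.Gen

theorem cover : ∀ i, i < 1024 → Z0.testBit i = true → i ≠ 429 → (2 ≤ px i ∨ 1 ≤ qx i) →
    ∃ t ∈ L, t.1 = px i ∧ t.2.1 = qx i := by
  decide +kernel

theorem qx_eq {i : ℕ} {b : Cell} (h : cellOf i = (b.1 + 13, b.2 + 13)) :
    (qx i : ℤ) = min |b.1| |b.2| := by
  simp only [cellOf, Prod.mk.injEq] at h
  obtain ⟨h1, h2⟩ := h
  have e1 : ((if 13 ≤ i % 32 then i % 32 - 13 else 13 - i % 32 : ℕ) : ℤ) = |b.1| := by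
    rw [← abs_sub13]
    congr 1
    omega
  have e2 : ((if 13 ≤ i / 32 then i / 32 - 13 else 13 - i / 32 : ℕ) : ℤ) = |b.2| := by
    rw [← abs_sub13]
    congr 1
    omega
  unfold qx
  rw [← e1, ← e2]
  push_cast
  rfl

/-- If Maker opens at `(0,0)` and Breaker does not reply on one of the four orthogonally
adjacent cells, then Maker can force an allowed copy of Snaky within a bounded number of
further moves. -/
theorem result : ∃ N : ℕ, ∀ b : Cell, 2 ≤ |b.1| + |b.2| →
    MakerForces N {((0 : ℤ), (0 : ℤ))} {b} := by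
  obtain ⟨N, hN⟩ := forces_first_reply rows hj0 h0 L hL (fun i => 2 ≤ px i ∨ 1 ≤ qx i) cover
  refine ⟨N, fun b hb => forces_origin (hN _ ?_ ?_)⟩
  · intro h
    simp only [c0, Prod.mk.injEq] at h
    have h1 : b.1 = 0 := by omega
    have h2 : b.2 = 0 := by omega
    rw [h1, h2] at hb
    simp at hb
  · intro i hi
    have h1 := px_eq hi
    have h2 := qx_eq hi
    by_contra hcon
    push Not at hcon
    obtain ⟨h3, h4⟩ := hcon
    have h5 : (px i : ℤ) ≤ 1 := by omega
    have h6 : (qx i : ℤ) ≤ 0 := by omega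
    rw [h1] at h5
    rw [h2] at h6
    have a1 : |b.1| ≤ 1 := le_trans (le_max_left _ _) h5
    have a2 : |b.2| ≤ 1 := le_trans (le_max_right _ _) h5
    rcases min_le_iff.1 h6 with h7 | h7 <;> omega

end Vale.Agent.Results.P062.B_orthoReply
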