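import Vale.Agent.Lib.P062.Gen.All

namespace Vale.Agent.Results.P062.C_reduceToThree

open Vale.Agent.Lib.P062
open Vale.Agent.Lib.P062.Gen

theorem cover : ∀ i, i < 1024 → Z0.testBit i = true → i ≠ 429 → ¬ (px i = 1 ∧ qx i = 0) →
    ∃ t ∈ L, t.1 = px i ∧ t.2.1 = qx i := by
  decide +kernel

theorem cell_m0 : cellOf 461 = ((13 : ℤ), (14 : ℤ)) := by simp [cellOf]
theorem cell_m1 : cellOf 397 = ((13 : ℤ), (12 : ℤ)) := by simp [cellOf]
theorem cell_e0 : cellOf 493 = ((13 : ℤ), (15 : ℤ)) := by simp [cellOf]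
theorem cell_e1 : cellOf 365 = ((13 : ℤ), (11 : ℤ)) := by simp [cellOf]
theorem cell_b : cellOf 430 = ((14 : ℤ), (13 : ℤ)) := by simp [cellOf]
theorem cell_c : cellOf 429 = c0 := by simp [cellOf, c0]

theorem mask0_eq : mask0 = Nat.lor MO (Nat.shiftLeft 1 461) := by decide +kernel
theorem mask1_eq : mask1 = Nat.lor mask0 (Nat.shiftLeft 1 397) := by decide +kernel

theorem cells_mask0 : cells mask0 = insert ((13 : ℤ), (14 : ℤ)) {c0} := by
  rw [mask0_eq, cells_lor_bit (by norm_num), cells_MO, cell_m0]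

theorem cells_mask1 : cells mask1 = insert ((13 : ℤ), (12 : ℤ))
    (insert ((13 : ℤ), (14 : ℤ)) {c0}) := by
  rw [mask1_eq, cells_lor_bit (by norm_num), cells_mask0, cell_m1]

theorem forb0_bit : forb0.testBit 430 = true := by decide +kernel
theorem forb1_bit : forb1.testBit 430 = true := by decide +kernel
theorem forb1_bit' : forb1.testBit 493 = true := by decide +kernel

/-- If Maker, to move, wins from the position with Maker cells `(0,0), (0,1), (0,-1)` and Breaker
cells `(1,0), (0,2), (0,-2)`, then Maker wins the unhandicapped game on the empty plane. -/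
theorem result : (∃ n : ℕ, MakerForces n {((0 : ℤ), (0 : ℤ)), (0, 1), (0, -1)}
    {((1 : ℤ), (0 : ℤ)), (0, 2), (0, -2)}) → ∃ n : ℕ, MakerForces n ∅ ∅ := by
  rintro ⟨n, hn⟩
  have hw := forces_window hn
  have hwM : (({((0 : ℤ), (0 : ℤ)), (0, 1), (0, -1)} : Finset Cell).map tr.symm.toEmbedding) =
      insert ((13 : ℤ), (12 : ℤ)) (insert ((13 : ℤ), (14 : ℤ)) {c0}) := by
    ext x
    simp [tr, c0]
    tauto
  have hwB : (({((1 : ℤ), (0 : ℤ)), (0, 2), (0, -2)} : Finset Cell).map tr.symm.toEmbedding) =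
      insert (cellOf 365) (insert (cellOf 493) {((14 : ℤ), (13 : ℤ))}) := by
    rw [cell_e1, cell_e0]
    ext x
    simp [tr]
    tauto
  rw [hwM, hwB] at hw
  -- the position after the reply (0,2)
  obtain ⟨N2, hN2⟩ := level_step rows lv1 (M := insert ((13 : ℤ), (14 : ℤ)) {c0})
    (B := insert (cellOf 493) {((14 : ℤ), (13 : ℤ))}) (m := ((13 : ℤ), (12 : ℤ))) cells_mask1
    (by simp [c0]) (by rw [cell_e0]; simp)
    (by rw [cell_e0]; intro c hc; simp [c0] at hc ⊢; rcases hc with rfl | rfl <;> simp)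
    (by
      intro c hc
      rcases Finset.mem_insert.1 hc with rfl | hc
      · exact cellOf_mem_cells (by norm_num) forb1_bit'
      · rw [Finset.mem_singleton] at hc
        subst hc
        rw [← cell_b]
        exact cellOf_mem_cells (by norm_num) forb1_bit)
    hw
  -- the position after the reply (1,0)
  obtain ⟨N1, hN1⟩ := level_step rows lv0 (M := {c0}) (B := {((14 : ℤ), (13 : ℤ))})
    (m := ((13 : ℤ), (14 : ℤ))) cells_mask0
    (by simp [c0]) (by simp)
    (by intro c hc; simp [c0] at hc ⊢; subst hc; simp)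
    (by
      intro c hc
      rw [Finset.mem_singleton] at hc
      subst hc
      rw [← cell_b]
      exact cellOf_mem_cells (by norm_num) forb0_bit)
    hN2
  exact maker_wins_of_adjacent rows hj0 h0 L hL cover hN1

end Vale.Agent.Results.P062.C_reduceToThree
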